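import Vale.Agent.P068.ZMain

namespace Vale.Agent.Results.P068.ZFCCounter

open Vale.Agent.P068

theorem result :
    ∃ M N : Matroid (ℤ × ℕ), M.E = Set.univ ∧ N.E = Set.univ ∧
      ¬ HasPackingCovering Set.univ ![M, N] ∧
      ¬ SatisfiesIntersection Set.univ M N.dual := by
  obtain ⟨g⟩ := gadget_zfc
  exact ⟨g.side 0, g.side 1, g.side_ground 0, g.side_ground 1, g.not_pc, g.not_int⟩

end Vale.Agent.Results.P068.ZFCCounter
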